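import Mathlib

namespace Vale.Agent.Results.P045.RyserIntersectingDegree

open Finset

variable {V : Type*} [DecidableEq V]

/-- Degree of a vertex: the number of edges containing it. -/
def deg (E : Finset (Finset V)) (v : V) : ℕ := (E.filter (fun e => v ∈ e)).card

/-- Double counting of incidences with a weight on the vertices. -/
theorem sum_edges_eq (E : Finset (Finset V)) (φ : V → ℤ) :
    ∑ e ∈ E, ∑ v ∈ e, φ v = ∑ v ∈ E.biUnion id, (deg E v : ℤ) * φ v := by
  have h1 : ∀ e ∈ E, ∑ v ∈ e, φ v = ∑ v ∈ E.biUnion id, if v ∈ e then φ v else 0 := by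
    intro e he
    rw [← Finset.sum_filter]
    apply Finset.sum_congr _ (fun _ _ => rfl)
    ext v
    simp only [Finset.mem_filter, Finset.mem_biUnion, id]
    constructor
    · intro hv; exact ⟨⟨e, he, hv⟩, hv⟩
    · intro hv; exact hv.2
  rw [Finset.sum_congr rfl h1, Finset.sum_comm]
  apply Finset.sum_congr rfl
  intro v _
  rw [← Finset.sum_filter, Finset.sum_const, deg]
  simp

theorem deg_pos {E : Finset (Finset V)} {e : Finset V} {v : V} (he : e ∈ E) (hv : v ∈ e) :
    1 ≤ deg E v := by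
  unfold deg
  exact Finset.card_pos.mpr ⟨e, Finset.mem_filter.mpr ⟨he, hv⟩⟩

/-- If `v` lies in two different edges then its degree is at least two. -/
theorem two_le_deg {E : Finset (Finset V)} {e f : Finset V} {v : V} (he : e ∈ E) (hf : f ∈ E)
    (hve : v ∈ e) (hvf : v ∈ f) (hne : e ≠ f) : 2 ≤ deg E v := by
  unfold deg
  have hsub : ({e, f} : Finset (Finset V)) ⊆ E.filter (fun e => v ∈ e) := by
    intro x hx
    simp only [Finset.mem_insert, Finset.mem_singleton] at hx
    rcases hx with rfl | rfl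
    · exact Finset.mem_filter.mpr ⟨he, hve⟩
    · exact Finset.mem_filter.mpr ⟨hf, hvf⟩
  calc 2 = ({e, f} : Finset (Finset V)).card := by rw [Finset.card_pair hne]
    _ ≤ _ := Finset.card_le_card hsub

/-- A vertex of degree two in an edge `e` lies in exactly one other edge. -/
theorem deg_two {E : Finset (Finset V)} {e : Finset V} {u : V} (he : e ∈ E) (hu : u ∈ e)
    (h2 : deg E u = 2) :
    ∃ f ∈ E, u ∈ f ∧ f ≠ e ∧ ∀ h ∈ E, u ∈ h → h = e ∨ h = f := by
  unfold deg at h2
  have heF : e ∈ E.filter (fun e => u ∈ e) := Finset.mem_filter.mpr ⟨he, hu⟩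
  have h1 : ((E.filter (fun e => u ∈ e)).erase e).card = 1 := by
    rw [Finset.card_erase_of_mem heF, h2]
  obtain ⟨f, hf⟩ := Finset.card_eq_one.mp h1
  have hfmem : f ∈ (E.filter (fun e => u ∈ e)).erase e := by rw [hf]; exact Finset.mem_singleton_self f
  rw [Finset.mem_erase, Finset.mem_filter] at hfmem
  refine ⟨f, hfmem.2.1, hfmem.2.2, hfmem.1, ?_⟩
  intro h hh huh
  by_cases hhe : h = e
  · exact Or.inl hhe
  · right
    have : h ∈ (E.filter (fun e => u ∈ e)).erase e :=
      Finset.mem_erase.mpr ⟨hhe, Finset.mem_filter.mpr ⟨hh, huh⟩⟩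
    rw [hf] at this
    exact Finset.mem_singleton.mp this

/-- In an intersecting family every edge meets all the others, counted through its vertices. -/
theorem edge_lower (E : Finset (Finset V)) (hint : ∀ e ∈ E, ∀ f ∈ E, ¬ Disjoint e f)
    (e : Finset V) (he : e ∈ E) :
    (E.card : ℤ) - 1 ≤ ∑ v ∈ e, ((deg E v : ℤ) - 1) := by
  have hsub : E.erase e ⊆ e.biUnion (fun v => (E.filter (fun f => v ∈ f)).erase e) := by
    intro f hf
    rw [Finset.mem_erase] at hf
    have hnd := hint f hf.2 e he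
    rw [Finset.not_disjoint_iff] at hnd
    obtain ⟨x, hx1, hx2⟩ := hnd
    rw [Finset.mem_biUnion]
    exact ⟨x, hx2, Finset.mem_erase.mpr ⟨hf.1, Finset.mem_filter.mpr ⟨hf.2, hx1⟩⟩⟩
  have hle := (Finset.card_le_card hsub).trans Finset.card_biUnion_le
  rw [Finset.card_erase_of_mem he] at hle
  have h3 : ∀ v ∈ e, ((E.filter (fun f => v ∈ f)).erase e).card = deg E v - 1 := by
    intro v hv
    rw [Finset.card_erase_of_mem (Finset.mem_filter.mpr ⟨he, hv⟩)]
    rfl
  rw [Finset.sum_congr rfl h3] at hle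
  have h4 : ∑ v ∈ e, ((deg E v : ℤ) - 1) = ((∑ v ∈ e, (deg E v - 1) : ℕ) : ℤ) := by
    rw [Nat.cast_sum]
    apply Finset.sum_congr rfl
    intro v hv
    have := deg_pos he hv
    omega
  rw [h4]
  have : (E.card : ℤ) - 1 = ((E.card - 1 : ℕ) : ℤ) := by
    have : 1 ≤ E.card := Finset.card_pos.mpr ⟨e, he⟩
    omega
  rw [this]
  exact_mod_cast hle

/-- Pair counting in an intersecting family. -/
theorem lower_basic (E : Finset (Finset V)) (hint : ∀ e ∈ E, ∀ f ∈ E, ¬ Disjoint e f) :
    (E.card : ℤ) * ((E.card : ℤ) - 1)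
      ≤ ∑ v ∈ E.biUnion id, (deg E v : ℤ) * ((deg E v : ℤ) - 1) := by
  rw [← sum_edges_eq E (fun v => (deg E v : ℤ) - 1)]
  calc (E.card : ℤ) * ((E.card : ℤ) - 1) = ∑ _e ∈ E, ((E.card : ℤ) - 1) := by
        rw [Finset.sum_const, nsmul_eq_mul]
    _ ≤ _ := Finset.sum_le_sum (fun e he => edge_lower E hint e he)

/-- Pair counting when some vertex `v₀` has degree at least `r`: an edge avoiding `v₀` has only
`r - 1` vertices outside the part of `v₀` to meet the edges through `v₀`, so it contains a vertex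
lying on two of them; these vertices together with `v₀` form a cover, so there are at least
`r - 1` of them, and each of them is an extra common vertex of two edges. -/
theorem lower_high (r : ℕ) (part : V → Fin r) (E : Finset (Finset V))
    (hcard : ∀ e ∈ E, e.card = r)
    (hpart : ∀ e ∈ E, ∀ u ∈ e, ∀ v ∈ e, part u = part v → u = v)
    (hint : ∀ e ∈ E, ∀ f ∈ E, ¬ Disjoint e f)
    (hcov : ∀ C : Finset V, (∀ e ∈ E, ∃ v ∈ C, v ∈ e) → r ≤ C.card)
    (v₀ : V) (hv₀ : r ≤ deg E v₀) :
    (E.card : ℤ) * ((E.card : ℤ) - 1) + 2 * ((r : ℤ) - 1)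
      ≤ ∑ v ∈ E.biUnion id, (deg E v : ℤ) * ((deg E v : ℤ) - 1) := by
  have hVne : Nonempty V := ⟨v₀⟩
  obtain ⟨E₀, hE₀⟩ : ∃ E₀ : Finset (Finset V), E₀ = E.filter (fun e => v₀ ∈ e) := ⟨_, rfl⟩
  have hE₀mem : ∀ e, e ∈ E₀ ↔ e ∈ E ∧ v₀ ∈ e := by
    intro e; rw [hE₀, Finset.mem_filter]
  have hE₀card : r ≤ E₀.card := by rw [hE₀]; exact hv₀
  obtain ⟨U, hU⟩ : ∃ U : Finset V,
      U = (E₀.biUnion id).filter (fun u => u ≠ v₀ ∧ 2 ≤ deg E₀ u) := ⟨_, rfl⟩
  obtain ⟨φ, hφ⟩ : ∃ φ : V → ℤ, ∀ u, φ u = if u ≠ v₀ ∧ 2 ≤ deg E₀ u then 1 else 0 :=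
    ⟨_, fun _ => rfl⟩
  -- the cover
  have hcover : ∀ f ∈ E, ∃ v ∈ insert v₀ U, v ∈ f := by
    intro f hf
    by_cases hvf : v₀ ∈ f
    · exact ⟨v₀, Finset.mem_insert_self _ _, hvf⟩
    · have hex : ∀ e ∈ E₀, ∃ x, x ∈ e ∧ x ∈ f := by
        intro e he
        have hnd := hint e ((hE₀mem e).mp he).1 f hf
        rw [Finset.not_disjoint_iff] at hnd
        exact hnd
      choose! x hx using hex
      have himg : f.image part = Finset.univ := by
        apply Finset.eq_univ_of_card
        rw [Finset.card_image_of_injOn (fun u hu v hv h => hpart f hf u hu v hv h), hcard f hf,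
          Fintype.card_fin]
      have hi : part v₀ ∈ f.image part := by rw [himg]; exact Finset.mem_univ _
      obtain ⟨w, hw, hwi⟩ := Finset.mem_image.mp hi
      have hmaps : ∀ e ∈ E₀, x e ∈ f.erase w := by
        intro e he
        obtain ⟨hxe, hxf⟩ := hx e he
        refine Finset.mem_erase.mpr ⟨?_, hxf⟩
        intro hxw
        have he' := (hE₀mem e).mp he
        have hxv : x e = v₀ := hpart e he'.1 (x e) hxe v₀ he'.2 (by rw [hxw, hwi])
        apply hvf
        rw [← hxv]
        exact hxf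
      have hlt : (f.erase w).card < E₀.card := by
        rw [Finset.card_erase_of_mem hw, hcard f hf]
        have hfpos : 0 < f.card := Finset.card_pos.mpr ⟨w, hw⟩
        rw [hcard f hf] at hfpos
        omega
      obtain ⟨e₁, he₁, e₂, he₂, hne, heq⟩ :=
        Finset.exists_ne_map_eq_of_card_lt_of_maps_to hlt hmaps
      obtain ⟨hx1e, hx1f⟩ := hx e₁ he₁
      obtain ⟨hx2e, _⟩ := hx e₂ he₂
      have hx1e2 : x e₁ ∈ e₂ := by rw [heq]; exact hx2e
      refine ⟨x e₁, Finset.mem_insert_of_mem ?_, hx1f⟩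
      rw [hU, Finset.mem_filter, Finset.mem_biUnion]
      refine ⟨⟨e₁, he₁, hx1e⟩, ?_, two_le_deg he₁ he₂ hx1e hx1e2 hne⟩
      intro h0
      apply hvf
      rw [← h0]
      exact hx1f
  have hUcard : (r : ℤ) - 1 ≤ (U.card : ℤ) := by
    have h1 := hcov _ hcover
    have h2 := Finset.card_insert_le v₀ U
    have h3 : r ≤ U.card + 1 := le_trans h1 h2
    have h4 : (r : ℤ) ≤ (U.card : ℤ) + 1 := by exact_mod_cast h3
    linarith
  -- the inequality for one edge
  have hedge : ∀ e ∈ E, ((E.card : ℤ) - 1) + (if v₀ ∈ e then ∑ u ∈ e, φ u else 0)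
      ≤ ∑ v ∈ e, ((deg E v : ℤ) - 1) := by
    intro e he
    by_cases hve : v₀ ∈ e
    · rw [if_pos hve]
      obtain ⟨S, hS⟩ : ∃ S : V → Finset (Finset V),
          ∀ v, S v = (E.filter (fun f => v ∈ f)).erase e := ⟨_, fun _ => rfl⟩
      obtain ⟨S', hS'0, hS'1⟩ : ∃ S' : V → Finset (Finset V), S' v₀ = S v₀ ∧
          ∀ x, x ≠ v₀ → S' x = (S x).filter (fun f => v₀ ∉ f) :=
        ⟨fun v => if v = v₀ then S v else (S v).filter (fun f => v₀ ∉ f), by simp,
          fun x hx => by simp [hx]⟩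
      have hsub : E.erase e ⊆ e.biUnion S' := by
        intro f hf
        rw [Finset.mem_erase] at hf
        rw [Finset.mem_biUnion]
        by_cases hvf : v₀ ∈ f
        · refine ⟨v₀, hve, ?_⟩
          rw [hS'0, hS]
          exact Finset.mem_erase.mpr ⟨hf.1, Finset.mem_filter.mpr ⟨hf.2, hvf⟩⟩
        · have hnd := hint f hf.2 e he
          rw [Finset.not_disjoint_iff] at hnd
          obtain ⟨x, hx1, hx2⟩ := hnd
          have hxv : x ≠ v₀ := by
            intro h0
            apply hvf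
            rw [← h0]
            exact hx1
          refine ⟨x, hx2, ?_⟩
          rw [hS'1 x hxv, hS]
          exact Finset.mem_filter.mpr
            ⟨Finset.mem_erase.mpr ⟨hf.1, Finset.mem_filter.mpr ⟨hf.2, hx1⟩⟩, hvf⟩
      have hle := (Finset.card_le_card hsub).trans Finset.card_biUnion_le
      rw [Finset.card_erase_of_mem he] at hle
      have hS'S : ∀ v ∈ e, ((S' v).card : ℤ) + φ v ≤ ((S v).card : ℤ) := by
        intro v hv
        by_cases hvv : v = v₀
        · have h0 : φ v = 0 := by rw [hφ]; simp [hvv]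
          rw [h0, hvv, hS'0, add_zero]
        · have hsubS : S' v ⊆ S v := by
            rw [hS'1 v hvv]; exact Finset.filter_subset _ _
          by_cases hd : 2 ≤ deg E₀ v
          · have hφv : φ v = 1 := by rw [hφ]; simp [hvv, hd]
            have hexg : ∃ g ∈ E₀.filter (fun g => v ∈ g), g ≠ e := by
              by_contra hcon
              push Not at hcon
              have hsub1 : E₀.filter (fun g => v ∈ g) ⊆ {e} := by
                intro g hg; exact Finset.mem_singleton.mpr (hcon g hg)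
              have hc1 := Finset.card_le_card hsub1
              rw [Finset.card_singleton] at hc1
              unfold deg at hd
              omega
            obtain ⟨g, hg, hge⟩ := hexg
            rw [Finset.mem_filter] at hg
            have hgE₀ := (hE₀mem g).mp hg.1
            have hgS : g ∈ S v := by
              rw [hS]
              exact Finset.mem_erase.mpr ⟨hge, Finset.mem_filter.mpr ⟨hgE₀.1, hg.2⟩⟩
            have hgS' : g ∉ S' v := by
              rw [hS'1 v hvv]
              intro hmem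
              exact (Finset.mem_filter.mp hmem).2 hgE₀.2
            have hss : S' v ⊂ S v := by
              refine Finset.ssubset_iff_subset_ne.mpr ⟨hsubS, ?_⟩
              intro heq
              rw [heq] at hgS'
              exact hgS' hgS
            have hlt := Finset.card_lt_card hss
            rw [hφv]
            have hlt' : (S' v).card + 1 ≤ (S v).card := hlt
            exact_mod_cast hlt'
          · have hφv : φ v = 0 := by rw [hφ]; simp [hd]
            rw [hφv, add_zero]
            have hc2 : (S' v).card ≤ (S v).card := Finset.card_le_card hsubS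
            exact_mod_cast hc2
      have hSdeg : ∀ v ∈ e, ((S v).card : ℤ) = (deg E v : ℤ) - 1 := by
        intro v hv
        have h1 : (S v).card = deg E v - 1 := by
          rw [hS, Finset.card_erase_of_mem (Finset.mem_filter.mpr ⟨he, hv⟩)]
          rfl
        have h2 := deg_pos he hv
        rw [h1]
        omega
      have hm1 : (E.card : ℤ) - 1 = ((E.card - 1 : ℕ) : ℤ) := by
        have : 1 ≤ E.card := Finset.card_pos.mpr ⟨e, he⟩
        omega
      have hle' : ((E.card - 1 : ℕ) : ℤ) ≤ ∑ v ∈ e, ((S' v).card : ℤ) := by exact_mod_cast hle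
      have hsum1 : ∑ v ∈ e, (((S' v).card : ℤ) + φ v) ≤ ∑ v ∈ e, ((deg E v : ℤ) - 1) := by
        apply Finset.sum_le_sum
        intro v hv
        rw [← hSdeg v hv]
        exact hS'S v hv
      rw [Finset.sum_add_distrib] at hsum1
      linarith
    · rw [if_neg hve, add_zero]
      exact edge_lower E hint e he
  -- sum over the edges
  rw [← sum_edges_eq E (fun v => (deg E v : ℤ) - 1)]
  have hsumE := Finset.sum_le_sum hedge
  rw [Finset.sum_add_distrib, Finset.sum_const, nsmul_eq_mul, ← Finset.sum_filter, ← hE₀,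
    sum_edges_eq E₀ φ] at hsumE
  have hUsum : 2 * (U.card : ℤ) ≤ ∑ u ∈ E₀.biUnion id, (deg E₀ u : ℤ) * φ u := by
    have h1 : ∑ u ∈ E₀.biUnion id, (deg E₀ u : ℤ) * φ u = ∑ u ∈ U, (deg E₀ u : ℤ) := by
      rw [hU, Finset.sum_filter]
      apply Finset.sum_congr rfl
      intro u _
      rw [hφ]
      by_cases hc : u ≠ v₀ ∧ 2 ≤ deg E₀ u
      · rw [if_pos hc, if_pos hc, mul_one]
      · rw [if_neg hc, if_neg hc, mul_zero]
    rw [h1]
    calc 2 * (U.card : ℤ) = ∑ _u ∈ U, (2 : ℤ) := by
          rw [Finset.sum_const, nsmul_eq_mul]; ring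
      _ ≤ _ := Finset.sum_le_sum (fun u hu => by
          rw [hU] at hu
          have h2 := (Finset.mem_filter.mp hu).2.2
          exact_mod_cast h2)
  linarith

/-- The upper bound on the number of incident pairs of edges in a counterexample. -/
theorem upper (r Δ : ℕ) (part : V → Fin r) (E : Finset (Finset V))
    (hcard : ∀ e ∈ E, e.card = r)
    (hpart : ∀ e ∈ E, ∀ u ∈ e, ∀ v ∈ e, part u = part v → u = v)
    (hint : ∀ e ∈ E, ∀ f ∈ E, ¬ Disjoint e f)
    (hdeg : ∀ v : V, (E.filter (fun e => v ∈ e)).card ≤ Δ)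
    (hr3 : 3 ≤ r) (hΔ2 : (2 : ℤ) ≤ (Δ : ℤ))
    (hcov : ∀ C : Finset V, (∀ e ∈ E, ∃ v ∈ C, v ∈ e) → r ≤ C.card) :
    2 * ∑ v ∈ E.biUnion id, (deg E v : ℤ) * ((deg E v : ℤ) - 1)
      ≤ 2 * ((Δ : ℤ) + 2) * ((r : ℤ) * E.card) - 6 * (Δ : ℤ) * ((r : ℤ) * r)
        + ((Δ : ℤ) - 2) * E.card := by
  -- (a) every vertex of every edge has degree at least two
  have hdeg2 : ∀ e ∈ E, ∀ v ∈ e, 2 ≤ deg E v := by
    intro e he v hv
    by_contra hlt
    have hF : ∀ h' ∈ E, v ∈ h' → h' = e := by
      intro h' hh' hv'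
      by_contra hne'
      exact hlt (two_le_deg hh' he hv' hv hne')
    have hc := hcov (e.erase v) (by
      intro h' hh'
      by_cases heq : h' = e
      · subst heq
        have hne : (h'.erase v).Nonempty := by
          rw [← Finset.card_pos, Finset.card_erase_of_mem hv, hcard h' he]; omega
        obtain ⟨w, hw⟩ := hne
        exact ⟨w, hw, Finset.mem_of_mem_erase hw⟩
      · have hnd := hint h' hh' e he
        rw [Finset.not_disjoint_iff] at hnd
        obtain ⟨w, hw1, hw2⟩ := hnd
        refine ⟨w, Finset.mem_erase.mpr ⟨?_, hw2⟩, hw1⟩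
        rintro rfl
        exact heq (hF h' hh' hw1))
    rw [Finset.card_erase_of_mem hv, hcard e he] at hc
    omega
  -- (b) every edge has at most one vertex of degree two
  have hb : ∀ e ∈ E, (e.filter (fun v => deg E v = 2)).card ≤ 1 := by
    intro e he
    by_contra hgt
    have hgt' : 1 < (e.filter (fun v => deg E v = 2)).card := by omega
    obtain ⟨u, hu, u', hu', huu'⟩ := Finset.one_lt_card.mp hgt'
    rw [Finset.mem_filter] at hu hu'
    obtain ⟨f, hf, huf, hfe, hfall⟩ := deg_two he hu.1 hu.2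
    obtain ⟨g, hg, hug, hge, hgall⟩ := deg_two he hu'.1 hu'.2
    have hnd := hint f hf g hg
    rw [Finset.not_disjoint_iff] at hnd
    obtain ⟨w, hwf, hwg⟩ := hnd
    have hu'mem : u' ∈ e.erase u := Finset.mem_erase.mpr ⟨Ne.symm huu', hu'.1⟩
    have hcardC : ((e.erase u).erase u').card = r - 2 := by
      rw [Finset.card_erase_of_mem hu'mem, Finset.card_erase_of_mem hu.1, hcard e he]; omega
    have hc := hcov (insert w ((e.erase u).erase u')) (by
      intro h hh
      by_cases heq : h = e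
      · subst heq
        have hne : ((h.erase u).erase u').Nonempty := by
          rw [← Finset.card_pos, hcardC]; omega
        obtain ⟨x, hx⟩ := hne
        exact ⟨x, Finset.mem_insert_of_mem hx,
          Finset.mem_of_mem_erase (Finset.mem_of_mem_erase hx)⟩
      · have hnd := hint h hh e he
        rw [Finset.not_disjoint_iff] at hnd
        obtain ⟨x, hx1, hx2⟩ := hnd
        by_cases hxu : x = u
        · rw [hxu] at hx1
          rcases hfall h hh hx1 with h1 | h1
          · exact absurd h1 heq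
          · exact ⟨w, Finset.mem_insert_self _ _, by rw [h1]; exact hwf⟩
        · by_cases hxu' : x = u'
          · rw [hxu'] at hx1
            rcases hgall h hh hx1 with h1 | h1
            · exact absurd h1 heq
            · exact ⟨w, Finset.mem_insert_self _ _, by rw [h1]; exact hwg⟩
          · exact ⟨x, Finset.mem_insert_of_mem
              (Finset.mem_erase.mpr ⟨hxu', Finset.mem_erase.mpr ⟨hxu, hx2⟩⟩), hx1⟩)
    have hle := Finset.card_insert_le w ((e.erase u).erase u')
    rw [hcardC] at hle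
    omega
  -- (c) every part contains at least `r` vertices of the support
  set supp : Finset V := E.biUnion id with hsupp
  have hW : ∀ i : Fin r, r ≤ (supp.filter (fun v => part v = i)).card := by
    intro i
    apply hcov
    intro e he
    have himg : e.image part = Finset.univ := by
      apply Finset.eq_univ_of_card
      rw [Finset.card_image_of_injOn (fun u hu v hv h => hpart e he u hu v hv h), hcard e he,
        Fintype.card_fin]
    have hi : i ∈ e.image part := by rw [himg]; exact Finset.mem_univ i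
    obtain ⟨v, hv, hvi⟩ := Finset.mem_image.mp hi
    refine ⟨v, Finset.mem_filter.mpr ⟨?_, hvi⟩, hv⟩
    rw [hsupp, Finset.mem_biUnion]
    exact ⟨e, he, hv⟩
  have hn : r * r ≤ supp.card := by
    rw [Finset.card_eq_sum_card_fiberwise (f := part) (t := Finset.univ)
      (fun x _ => Finset.mem_univ _)]
    calc r * r = ∑ _i : Fin r, r := by simp
      _ ≤ _ := Finset.sum_le_sum (fun i _ => hW i)
  -- counting
  set m : ℕ := E.card with hm
  have hsuppdeg : ∀ v ∈ supp, 2 ≤ deg E v ∧ deg E v ≤ Δ := by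
    intro v hv
    rw [hsupp, Finset.mem_biUnion] at hv
    obtain ⟨e, he, hve⟩ := hv
    exact ⟨hdeg2 e he v hve, hdeg v⟩
  have hS1 : ∑ v ∈ supp, (deg E v : ℤ) = (r : ℤ) * m := by
    have h := sum_edges_eq E (fun _ => (1 : ℤ))
    simp only [mul_one] at h
    rw [← h]
    have h2 : ∀ e ∈ E, ∑ _v ∈ e, (1 : ℤ) = (r : ℤ) := by
      intro e he
      simp [hcard e he]
    rw [Finset.sum_congr rfl h2]
    simp [hm, mul_comm]
  set χ : V → ℤ := fun v => if deg E v = 2 then 1 else 0 with hχ
  have hS3 : ∑ v ∈ supp, (deg E v : ℤ) * χ v ≤ (m : ℤ) := by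
    rw [← sum_edges_eq E χ]
    have h2 : ∀ e ∈ E, ∑ v ∈ e, χ v ≤ (1 : ℤ) := by
      intro e he
      have : ∑ v ∈ e, χ v = ((e.filter (fun v => deg E v = 2)).card : ℤ) := by
        simp [hχ]
      rw [this]
      exact_mod_cast hb e he
    calc ∑ e ∈ E, ∑ v ∈ e, χ v ≤ ∑ _e ∈ E, (1 : ℤ) := Finset.sum_le_sum h2
      _ = (m : ℤ) := by simp [hm]
  have hpt : ∀ v ∈ supp, 2 * ((deg E v : ℤ) * ((deg E v : ℤ) - 1))
      ≤ 2 * ((Δ : ℤ) + 2) * (deg E v : ℤ) - 6 * (Δ : ℤ) + ((Δ : ℤ) - 2) * ((deg E v : ℤ) * χ v) := by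
    intro v hv
    obtain ⟨h2, hΔ⟩ := hsuppdeg v hv
    by_cases hd : deg E v = 2
    · simp only [hχ, hd, if_true]
      push_cast
      ring_nf
      rfl
    · have h3 : (3 : ℤ) ≤ (deg E v : ℤ) := by
        have : 3 ≤ deg E v := by omega
        exact_mod_cast this
      have hΔ' : (deg E v : ℤ) ≤ (Δ : ℤ) := by exact_mod_cast hΔ
      simp only [hχ, hd, if_false, mul_zero, add_zero]
      nlinarith [mul_nonneg (sub_nonneg.mpr h3) (sub_nonneg.mpr hΔ')]
  have hsum := Finset.sum_le_sum hpt
  rw [← Finset.mul_sum, Finset.sum_add_distrib, Finset.sum_sub_distrib, ← Finset.mul_sum,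
    ← Finset.mul_sum, hS1] at hsum
  simp only [Finset.sum_const, nsmul_eq_mul] at hsum
  have hn' : (r : ℤ) * r ≤ (supp.card : ℤ) := by exact_mod_cast hn
  have hr' : (3 : ℤ) ≤ (r : ℤ) := by exact_mod_cast hr3
  have h1 : ((Δ : ℤ) - 2) * ∑ v ∈ supp, (deg E v : ℤ) * χ v ≤ ((Δ : ℤ) - 2) * m :=
    mul_le_mul_of_nonneg_left hS3 (by linarith)
  have h2 : 6 * (Δ : ℤ) * ((r : ℤ) * r) ≤ (supp.card : ℤ) * (6 * (Δ : ℤ)) := by nlinarith
  have hfac : ∑ x ∈ supp, ((Δ : ℤ) - 2) * ((deg E x : ℤ) * χ x)
      = ((Δ : ℤ) - 2) * ∑ x ∈ supp, (deg E x : ℤ) * χ x := by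
    rw [Finset.mul_sum]
  linarith

/-- **Intersecting case of Ryser's conjecture for bounded degree.**
Let `H` be an intersecting `r`-partite `r`-uniform hypergraph in which every vertex lies in at
most `Δ` edges, where `Δ = 5` and `r ≥ 4`, or `Δ = 6` and `r ≥ 6`, or `Δ = 7` and `r ≥ 22`.
Then `H` has a vertex cover of size at most `r - 1`. -/
theorem result {V : Type*} [DecidableEq V] (r Δ : ℕ) (part : V → Fin r)
    (E : Finset (Finset V))
    (hcard : ∀ e ∈ E, e.card = r)
    (hpart : ∀ e ∈ E, ∀ u ∈ e, ∀ v ∈ e, part u = part v → u = v)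
    (hint : ∀ e ∈ E, ∀ f ∈ E, ¬ Disjoint e f)
    (hdeg : ∀ v : V, (E.filter (fun e => v ∈ e)).card ≤ Δ)
    (hcase : (Δ = 5 ∧ 4 ≤ r) ∨ (Δ = 6 ∧ 6 ≤ r) ∨ (Δ = 7 ∧ 22 ≤ r)) :
    ∃ C : Finset V, C.card ≤ r - 1 ∧ ∀ e ∈ E, ∃ v ∈ C, v ∈ e := by
  by_contra hno
  have hr3 : 3 ≤ r := by rcases hcase with h | h | h <;> omega
  have hcov : ∀ C : Finset V, (∀ e ∈ E, ∃ v ∈ C, v ∈ e) → r ≤ C.card := by
    intro C hC
    by_contra h
    exact hno ⟨C, by omega, hC⟩
  have hlow := lower_basic E hint
  have hr' : (3 : ℤ) ≤ (r : ℤ) := by exact_mod_cast hr3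
  have hmpos : 1 ≤ E.card := by
    by_contra h
    have hE : E = ∅ := by
      rw [← Finset.card_eq_zero]; omega
    have := hcov ∅ (by intro e he; rw [hE] at he; simp at he)
    simp at this
    omega
  have hm' : (1 : ℤ) ≤ (E.card : ℤ) := by exact_mod_cast hmpos
  rcases hcase with ⟨h, hr⟩ | ⟨h, hr⟩ | ⟨h, hr⟩
  · have hup := upper r Δ part E hcard hpart hint hdeg hr3 (by rw [h]; norm_num) hcov
    have hr'' : (4 : ℤ) ≤ (r : ℤ) := by exact_mod_cast hr
    rw [h] at hup
    push_cast at hup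
    nlinarith [sq_nonneg (4 * (E.card : ℤ) - (14 * (r : ℤ) + 5))]
  · rcases Nat.lt_or_ge r 7 with hr6 | hr7
    · have hr6' : r = 6 := by omega
      by_cases hbig : ∃ v, 6 ≤ deg E v
      · obtain ⟨v₀, hv₀⟩ := hbig
        have hup := upper r Δ part E hcard hpart hint hdeg hr3 (by rw [h]; norm_num) hcov
        have hhigh := lower_high r part E hcard hpart hint hcov v₀ (by omega)
        rw [h] at hup
        subst hr6'
        push_cast at hup hhigh
        nlinarith [sq_nonneg (2 * (E.card : ℤ) - 51)]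
      · push Not at hbig
        have hdeg5 : ∀ v : V, (E.filter (fun e => v ∈ e)).card ≤ 5 := by
          intro v
          have h5 := hbig v
          unfold deg at h5
          omega
        have hup := upper r 5 part E hcard hpart hint hdeg5 hr3 (by norm_num) hcov
        have hr'' : (4 : ℤ) ≤ (r : ℤ) := by linarith
        push_cast at hup
        nlinarith [sq_nonneg (4 * (E.card : ℤ) - (14 * (r : ℤ) + 5))]
    · have hr'' : (7 : ℤ) ≤ (r : ℤ) := by exact_mod_cast hr7
      have hup := upper r Δ part E hcard hpart hint hdeg hr3 (by rw [h]; norm_num) hcov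
      rw [h] at hup
      push_cast at hup
      nlinarith [sq_nonneg (4 * (E.card : ℤ) - (16 * (r : ℤ) + 6))]
  · have hr'' : (22 : ℤ) ≤ (r : ℤ) := by exact_mod_cast hr
    have hup := upper r Δ part E hcard hpart hint hdeg hr3 (by rw [h]; norm_num) hcov
    rw [h] at hup
    push_cast at hup
    nlinarith [sq_nonneg (4 * (E.card : ℤ) - (18 * (r : ℤ) + 7))]

end Vale.Agent.Results.P045.RyserIntersectingDegree
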