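import Mathlib
import Vale.Agent.Results.P045.RyserIntersectingDegree

namespace Vale.Agent.Results.P045.RyserMaxDegreeFive

open Finset
open Vale.Agent.Results.P045.RyserIntersectingDegree

variable {V : Type*} [DecidableEq V]

/-- Number of ordered pairs of members of `F` that are not disjoint. -/
def T (F : Finset (Finset V)) : ℕ := ∑ e ∈ F, (F.filter (fun f => ¬ Disjoint e f)).card

/-- Pairwise disjoint family. -/
def IsMatching (M : Finset (Finset V)) : Prop := ∀ e ∈ M, ∀ f ∈ M, e ≠ f → Disjoint e f

/-- A Turan-type bound in integer form: if a family of nonempty sets has no `k + 1` pairwise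
disjoint members, then for every `q` the number `T F` of ordered pairs of non-disjoint members
is at least `(2 q + 1) |F| - q (q + 1) k`. -/
theorem turan_int (q : ℕ) : ∀ (n : ℕ) (F : Finset (Finset V)), F.card = n →
    (∀ e ∈ F, e.Nonempty) →
    ∀ k : ℕ, (∀ M, M ⊆ F → IsMatching M → M.card ≤ k) →
      (2 * q + 1) * F.card ≤ T F + q * (q + 1) * k := by
  intro n
  induction n using Nat.strong_induction_on with
  | _ n ih =>
    intro F hFn hne k hk
    rcases F.eq_empty_or_nonempty with rfl | hFne
    · simp [T]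
    · obtain ⟨e0, he0, hmin⟩ := Finset.exists_min_image F
        (fun e => (F.filter (fun f => ¬ Disjoint e f)).card) hFne
      set N := F.filter (fun f => ¬ Disjoint e0 f) with hN
      set F' := F.filter (fun f => Disjoint e0 f) with hF'
      have he0ne : ¬ Disjoint e0 e0 := by
        rw [Finset.disjoint_self_iff_empty]
        exact (hne e0 he0).ne_empty
      have he0N : e0 ∈ N := by
        rw [hN, Finset.mem_filter]; exact ⟨he0, he0ne⟩
      have hcardF : F.card = N.card + F'.card := by
        rw [hN, hF']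
        have := Finset.card_filter_add_card_filter_not (s := F) (fun f => Disjoint e0 f)
        omega
      have hF'lt : F'.card < n := by
        have : 1 ≤ N.card := Finset.card_pos.mpr ⟨e0, he0N⟩
        omega
      have hk1 : 1 ≤ k := by
        have h := hk {e0} (by simpa using he0) (by
          intro e he f hf hef
          rw [Finset.mem_singleton] at he hf
          exact absurd (he.trans hf.symm) hef)
        simpa using h
      obtain ⟨j, rfl⟩ : ∃ j, k = j + 1 := ⟨k - 1, by omega⟩
      have hk' : ∀ M, M ⊆ F' → IsMatching M → M.card ≤ j := by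
        intro M hM hMm
        have hins : insert e0 M ⊆ F := by
          intro x hx
          rcases Finset.mem_insert.mp hx with rfl | hx
          · exact he0
          · exact (Finset.mem_filter.mp (hM hx)).1
        have he0M : e0 ∉ M := by
          intro h
          exact he0ne (Finset.mem_filter.mp (hM h)).2
        have hmatch : IsMatching (insert e0 M) := by
          intro e he f hf hef
          rcases Finset.mem_insert.mp he with he' | he'
          · rcases Finset.mem_insert.mp hf with hf' | hf'
            · exact absurd (he'.trans hf'.symm) hef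
            · rw [he']; exact (Finset.mem_filter.mp (hM hf')).2
          · rcases Finset.mem_insert.mp hf with hf' | hf'
            · rw [hf']; exact ((Finset.mem_filter.mp (hM he')).2).symm
            · exact hMm e he' f hf' hef
        have h := hk _ hins hmatch
        rw [Finset.card_insert_of_notMem he0M] at h
        omega
      have ih' := ih F'.card hF'lt F' rfl (fun e he => hne e (Finset.mem_filter.mp he).1) j hk'
      have hT : N.card ^ 2 + T F' ≤ T F := by
        unfold T
        have hsplit : ∑ e ∈ F, (F.filter (fun f => ¬ Disjoint e f)).card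
            = ∑ e ∈ N, (F.filter (fun f => ¬ Disjoint e f)).card
              + ∑ e ∈ F', (F.filter (fun f => ¬ Disjoint e f)).card := by
          rw [hN, hF', ← Finset.sum_filter_add_sum_filter_not F (fun f => Disjoint e0 f), add_comm]
        rw [hsplit]
        apply Nat.add_le_add
        · calc N.card ^ 2 = ∑ _e ∈ N, N.card := by simp [sq]
            _ ≤ _ := Finset.sum_le_sum (fun e he => hmin e (Finset.mem_filter.mp he).1)
        · apply Finset.sum_le_sum
          intro e _
          apply Finset.card_le_card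
          intro f hf
          rw [Finset.mem_filter] at hf ⊢
          exact ⟨(Finset.mem_filter.mp hf.1).1, hf.2⟩
      have hsq : (0 : ℤ) ≤ ((N.card : ℤ) - q) * ((N.card : ℤ) - q - 1) := by
        rcases le_or_gt (N.card : ℤ) (q : ℤ) with h | h
        · nlinarith
        · have h' : (q : ℤ) + 1 ≤ (N.card : ℤ) := by omega
          nlinarith
      rw [hcardF]
      zify at ih' hT ⊢
      nlinarith

/-- Neighbours of an edge in the intersection graph, counted through its vertices. -/
theorem nbrs_le (E : Finset (Finset V)) (e : Finset V) (he : e ∈ E) :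
    ((E.filter (fun f => ¬ Disjoint e f)).card : ℤ) ≤ 1 + ∑ v ∈ e, ((deg E v : ℤ) - 1) := by
  have hsub : E.filter (fun f => ¬ Disjoint e f)
      ⊆ insert e (e.biUnion (fun v => (E.filter (fun f => v ∈ f)).erase e)) := by
    intro f hf
    rw [Finset.mem_filter] at hf
    by_cases hfe : f = e
    · rw [hfe]; exact Finset.mem_insert_self _ _
    · apply Finset.mem_insert_of_mem
      have hnd := hf.2
      rw [Finset.not_disjoint_iff] at hnd
      obtain ⟨x, hx1, hx2⟩ := hnd
      rw [Finset.mem_biUnion]
      exact ⟨x, hx1, Finset.mem_erase.mpr ⟨hfe, Finset.mem_filter.mpr ⟨hf.1, hx2⟩⟩⟩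
  have hle := (Finset.card_le_card hsub).trans (Finset.card_insert_le _ _)
  have hle2 := hle.trans (Nat.add_le_add_right Finset.card_biUnion_le 1)
  have h3 : ∀ v ∈ e, ((E.filter (fun f => v ∈ f)).erase e).card = deg E v - 1 := by
    intro v hv
    rw [Finset.card_erase_of_mem (Finset.mem_filter.mpr ⟨he, hv⟩)]
    rfl
  rw [Finset.sum_congr rfl h3] at hle2
  have h4 : ∑ v ∈ e, ((deg E v : ℤ) - 1) = ((∑ v ∈ e, (deg E v - 1) : ℕ) : ℤ) := by
    rw [Nat.cast_sum]
    apply Finset.sum_congr rfl
    intro v hv
    have := deg_pos he hv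
    omega
  rw [h4]
  have : ((E.filter (fun f => ¬ Disjoint e f)).card : ℤ)
      ≤ ((∑ v ∈ e, (deg E v - 1) + 1 : ℕ) : ℤ) := by exact_mod_cast hle2
  push_cast at this ⊢
  linarith

theorem odd_sq (x : ℤ) (h : x ≠ 0) : 1 ≤ x ^ 2 := by
  rcases lt_or_gt_of_ne h with h' | h'
  · nlinarith
  · nlinarith

theorem phi3 (r c : ℤ) (hr : 4 ≤ r) : 0 ≤ c ^ 2 - (4 * r + 1) * c + 6 * r * (r - 1) := by
  have hodd : 1 ≤ (2 * c - 4 * r - 1) ^ 2 := odd_sq _ (by omega)
  nlinarith [mul_nonneg (by linarith : (0 : ℤ) ≤ r) (sub_nonneg.mpr hr)]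

theorem phi4 (r c : ℤ) (hr : 6 ≤ r) : 0 ≤ c ^ 2 - (5 * r + 1) * c + 8 * r * (r - 1) := by
  rcases eq_or_lt_of_le hr with h6 | h7
  · rw [← h6]
    have hodd : 1 ≤ (2 * c - 31) ^ 2 := odd_sq _ (by omega)
    nlinarith
  · have h7' : (7 : ℤ) ≤ r := by omega
    nlinarith [sq_nonneg (2 * c - 5 * r - 1),
      mul_nonneg (by linarith : (0 : ℤ) ≤ r) (sub_nonneg.mpr h7')]

theorem phi5 (r c : ℤ) (hr : 13 ≤ r) : 0 ≤ c ^ 2 - (6 * r + 1) * c + 10 * r * (r - 1) := by
  have hodd : 1 ≤ (2 * c - 6 * r - 1) ^ 2 := odd_sq _ (by omega)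
  nlinarith [mul_nonneg (by linarith : (0 : ℤ) ≤ r) (sub_nonneg.mpr hr)]

/-- The final counting contradiction, with `m = ν q + s` edges. -/
theorem final_arith (ν s q T A B C : ℤ) (hs0 : 0 ≤ s) (hsν : 0 ≤ ν - s) (hC : 0 < C)
    (hφq : 0 ≤ q ^ 2 - A * q + B) (hφq1 : 0 ≤ (q + 1) ^ 2 - A * (q + 1) + B)
    (hQ : (2 * q + 1) * (ν * q + s) ≤ T + q * (q + 1) * ν)
    (hTup : T ≤ A * (ν * q + s) - B * ν - C) : False := by
  have h1 := mul_nonneg hsν hφq
  have h2 := mul_nonneg hs0 hφq1
  nlinarith [h1, h2]

theorem main (r Δ : ℕ) (part : V → Fin r)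
    (hcase : (Δ = 3 ∧ 4 ≤ r) ∨ (Δ = 4 ∧ 6 ≤ r) ∨ (Δ = 5 ∧ 13 ≤ r)) :
    ∀ (n : ℕ) (E : Finset (Finset V)), E.card = n →
    (∀ e ∈ E, e.card = r) →
    (∀ e ∈ E, ∀ u ∈ e, ∀ v ∈ e, part u = part v → u = v) →
    (∀ v : V, (E.filter (fun e => v ∈ e)).card ≤ Δ) →
    ∃ (C : Finset V) (M : Finset (Finset V)), M ⊆ E ∧
      (∀ e ∈ M, ∀ f ∈ M, e ≠ f → Disjoint e f) ∧ (∀ e ∈ E, ∃ v ∈ C, v ∈ e) ∧
      C.card ≤ (r - 1) * M.card := by
  have hr5 : 4 ≤ r := by rcases hcase with h | h | h <;> omega
  intro n
  induction n using Nat.strong_induction_on with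
  | _ n ih =>
    intro E hEn hcard hpart hdeg
    have hne : ∀ e ∈ E, e.Nonempty := by
      intro e he
      rw [← Finset.card_pos, hcard e he]; omega
    by_cases hex : ∃ e ∈ E, ∃ v ∈ e, deg E v = 1
    · -- a vertex of degree one: remove its edge together with all edges meeting it
      obtain ⟨e, he, v, hv, hd1⟩ := hex
      have hF : ∀ h' ∈ E, v ∈ h' → h' = e := by
        intro h' hh' hv'
        by_contra hne'
        have := two_le_deg hh' he hv' hv hne'
        omega
      set E' := E.filter (fun f => Disjoint e f) with hE'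
      have hee : ¬ Disjoint e e := by
        rw [Finset.disjoint_self_iff_empty]
        exact (hne e he).ne_empty
      have heE' : e ∉ E' := by
        intro h
        exact hee (Finset.mem_filter.mp h).2
      have hE'sub : E' ⊆ E := Finset.filter_subset _ _
      have hlt : E'.card < n := by
        rw [← hEn]
        exact Finset.card_lt_card ⟨hE'sub, fun h => heE' (h he)⟩
      obtain ⟨C', M', hM'E, hM'm, hC'cov, hC'card⟩ := ih E'.card hlt E' rfl
        (fun f hf => hcard f (hE'sub hf))
        (fun f hf => hpart f (hE'sub hf))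
        (fun w => (Finset.card_le_card (Finset.filter_subset_filter _ hE'sub)).trans (hdeg w))
      have heM' : e ∉ M' := fun h => heE' (hM'E h)
      refine ⟨C' ∪ e.erase v, insert e M', ?_, ?_, ?_, ?_⟩
      · intro x hx
        rcases Finset.mem_insert.mp hx with rfl | hx
        · exact he
        · exact hE'sub (hM'E hx)
      · intro a ha b hb hab
        rcases Finset.mem_insert.mp ha with ha' | ha'
        · rcases Finset.mem_insert.mp hb with hb' | hb'
          · exact absurd (ha'.trans hb'.symm) hab
          · rw [ha']; exact (Finset.mem_filter.mp (hM'E hb')).2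
        · rcases Finset.mem_insert.mp hb with hb' | hb'
          · rw [hb']; exact ((Finset.mem_filter.mp (hM'E ha')).2).symm
          · exact hM'm a ha' b hb' hab
      · intro h hh
        by_cases hdis : Disjoint e h
        · obtain ⟨w, hw, hwh⟩ := hC'cov h (Finset.mem_filter.mpr ⟨hh, hdis⟩)
          exact ⟨w, Finset.mem_union_left _ hw, hwh⟩
        · by_cases heq : h = e
          · rw [heq]
            have hne' : (e.erase v).Nonempty := by
              rw [← Finset.card_pos, Finset.card_erase_of_mem hv, hcard e he]; omega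
            obtain ⟨w, hw⟩ := hne'
            exact ⟨w, Finset.mem_union_right _ hw, Finset.mem_of_mem_erase hw⟩
          · rw [Finset.not_disjoint_iff] at hdis
            obtain ⟨w, hw1, hw2⟩ := hdis
            refine ⟨w, Finset.mem_union_right _ (Finset.mem_erase.mpr ⟨?_, hw1⟩), hw2⟩
            rintro rfl
            exact heq (hF h hh hw2)
      · rw [Finset.card_insert_of_notMem heM']
        have h1 := Finset.card_union_le C' (e.erase v)
        rw [Finset.card_erase_of_mem hv, hcard e he] at h1
        have : (r - 1) * (M'.card + 1) = (r - 1) * M'.card + (r - 1) := by ring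
        omega
    · -- all degrees at least two
      push Not at hex
      classical
      obtain ⟨M, hMmem, hMmax⟩ := Finset.exists_max_image
        (E.powerset.filter (fun M => IsMatching M)) Finset.card
        ⟨∅, Finset.mem_filter.mpr ⟨Finset.empty_mem_powerset _, by
          intro e he; simp at he⟩⟩
      rw [Finset.mem_filter, Finset.mem_powerset] at hMmem
      obtain ⟨hME, hMm⟩ := hMmem
      have hmax : ∀ M', M' ⊆ E → IsMatching M' → M'.card ≤ M.card := by
        intro M' h1 h2
        exact hMmax M' (Finset.mem_filter.mpr ⟨Finset.mem_powerset.mpr h1, h2⟩)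
      set supp : Finset V := E.biUnion id with hsupp
      by_cases hsmall : ∃ i : Fin r, (supp.filter (fun v => part v = i)).card ≤ (r - 1) * M.card
      · obtain ⟨i, hi⟩ := hsmall
        refine ⟨supp.filter (fun v => part v = i), M, hME, hMm, ?_, hi⟩
        intro e he
        have himg : e.image part = Finset.univ := by
          apply Finset.eq_univ_of_card
          rw [Finset.card_image_of_injOn (fun u hu v hv h => hpart e he u hu v hv h), hcard e he,
            Fintype.card_fin]
        have hi' : i ∈ e.image part := by rw [himg]; exact Finset.mem_univ i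
        obtain ⟨v, hv, hvi⟩ := Finset.mem_image.mp hi'
        refine ⟨v, Finset.mem_filter.mpr ⟨?_, hvi⟩, hv⟩
        rw [hsupp, Finset.mem_biUnion]
        exact ⟨e, he, hv⟩
      · exfalso
        push Not at hsmall
        by_cases hEe : E = ∅
        · have h0 := hsmall ⟨0, by omega⟩
          rw [hsupp, hEe] at h0
          simp at h0
        obtain ⟨e1, he1⟩ := Finset.nonempty_iff_ne_empty.mpr hEe
        set m : ℕ := E.card with hm
        set ν : ℕ := M.card with hν
        have hν1 : 1 ≤ ν := by
          have h := hmax {e1} (by simpa using he1) (by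
            intro e he f hf hef
            rw [Finset.mem_singleton] at he hf
            exact absurd (he.trans hf.symm) hef)
          simpa using h
        have hn : r * ((r - 1) * ν + 1) ≤ supp.card := by
          rw [Finset.card_eq_sum_card_fiberwise (f := part) (t := Finset.univ)
            (fun x _ => Finset.mem_univ _)]
          calc r * ((r - 1) * ν + 1) = ∑ _i : Fin r, ((r - 1) * ν + 1) := by simp
            _ ≤ _ := Finset.sum_le_sum (fun i _ => hsmall i)
        have hsuppdeg : ∀ v ∈ supp, 2 ≤ deg E v ∧ deg E v ≤ Δ := by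
          intro v hv
          rw [hsupp, Finset.mem_biUnion] at hv
          obtain ⟨e, he, hve⟩ := hv
          have h1 := deg_pos he hve
          have h2 := hex e he v hve
          exact ⟨by omega, hdeg v⟩
        have hS1 : ∑ v ∈ supp, (deg E v : ℤ) = (r : ℤ) * m := by
          have h := sum_edges_eq E (fun _ => (1 : ℤ))
          simp only [mul_one] at h
          rw [← h]
          have h2 : ∀ e ∈ E, ∑ _v ∈ e, (1 : ℤ) = (r : ℤ) := by
            intro e he
            simp [hcard e he]
          rw [Finset.sum_congr rfl h2]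
          simp [hm, mul_comm]
        have hT : (T E : ℤ) ≤ (m : ℤ) + ∑ v ∈ supp, (deg E v : ℤ) * ((deg E v : ℤ) - 1) := by
          rw [← sum_edges_eq E (fun v => (deg E v : ℤ) - 1)]
          unfold T
          rw [Nat.cast_sum]
          calc ∑ e ∈ E, ((E.filter (fun f => ¬ Disjoint e f)).card : ℤ)
              ≤ ∑ e ∈ E, (1 + ∑ v ∈ e, ((deg E v : ℤ) - 1)) :=
                Finset.sum_le_sum (fun e he => nbrs_le E e he)
            _ = (m : ℤ) + ∑ e ∈ E, ∑ v ∈ e, ((deg E v : ℤ) - 1) := by
                rw [Finset.sum_add_distrib]; simp [hm]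
        have hturan : ∀ q : ℕ, (2 * (q : ℤ) + 1) * m ≤ (T E : ℤ) + q * (q + 1) * ν := by
          intro q
          have h := turan_int q m E rfl hne ν hmax
          exact_mod_cast h
        have hΔ2 : (2 : ℤ) ≤ (Δ : ℤ) := by
          rcases hcase with h | h | h <;> (rw [h.1]; norm_num)
        have hpt : ∀ v ∈ supp, (deg E v : ℤ) * ((deg E v : ℤ) - 1)
            ≤ ((Δ : ℤ) + 1) * (deg E v : ℤ) - 2 * (Δ : ℤ) := by
          intro v hv
          obtain ⟨h2, hΔ⟩ := hsuppdeg v hv
          have h2' : (2 : ℤ) ≤ (deg E v : ℤ) := by exact_mod_cast h2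
          have hΔ' : (deg E v : ℤ) ≤ (Δ : ℤ) := by exact_mod_cast hΔ
          nlinarith [mul_nonneg (sub_nonneg.mpr h2') (sub_nonneg.mpr hΔ')]
        have hS2 : ∑ v ∈ supp, (deg E v : ℤ) * ((deg E v : ℤ) - 1)
            ≤ ((Δ : ℤ) + 1) * ((r : ℤ) * m) - (supp.card : ℤ) * (2 * (Δ : ℤ)) := by
          have hsum := Finset.sum_le_sum hpt
          rw [Finset.sum_sub_distrib, ← Finset.mul_sum, hS1] at hsum
          simpa using hsum
        have hr' : (4 : ℤ) ≤ (r : ℤ) := by exact_mod_cast hr5
        have hν' : (1 : ℤ) ≤ (ν : ℤ) := by exact_mod_cast hν1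
        have hn' : (r : ℤ) * (((r : ℤ) - 1) * ν + 1) ≤ (supp.card : ℤ) := by
          have h : ((r * ((r - 1) * ν + 1) : ℕ) : ℤ) ≤ (supp.card : ℤ) := by exact_mod_cast hn
          have hr1 : ((r - 1 : ℕ) : ℤ) = (r : ℤ) - 1 := by
            have : 1 ≤ r := by omega
            omega
          push_cast at h
          rw [hr1] at h
          exact h
        have hTup : (T E : ℤ) ≤ (m : ℤ) + (((Δ : ℤ) + 1) * ((r : ℤ) * m)
            - ((r : ℤ) * (((r : ℤ) - 1) * ν + 1)) * (2 * (Δ : ℤ))) := by
          have hB : ((r : ℤ) * (((r : ℤ) - 1) * ν + 1)) * (2 * (Δ : ℤ))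
              ≤ (supp.card : ℤ) * (2 * (Δ : ℤ)) :=
            mul_le_mul_of_nonneg_right hn' (by linarith)
          linarith
        have hνpos : 0 < ν := by omega
        have hms : m = ν * (m / ν) + m % ν := (Nat.div_add_mod m ν).symm
        have hsν : m % ν < ν := Nat.mod_lt m hνpos
        generalize m / ν = q at hms
        generalize m % ν = s at hms hsν
        have hQ := hturan q
        have hms' : (m : ℤ) = (ν : ℤ) * q + s := by exact_mod_cast hms
        have hsν' : (0 : ℤ) ≤ (ν : ℤ) - s := by
          have : (s : ℤ) < ν := by exact_mod_cast hsν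
          linarith
        have hs0 : (0 : ℤ) ≤ (s : ℤ) := by positivity
        rw [hms'] at hQ hTup
        have hrpos : (0 : ℤ) < (r : ℤ) := by linarith
        rcases hcase with ⟨h, hr⟩ | ⟨h, hr⟩ | ⟨h, hr⟩
        · rw [h] at hTup
          push_cast at hTup
          exact final_arith ν s q (T E) (4 * (r : ℤ) + 1) (6 * r * (r - 1)) (6 * r)
            hs0 hsν' (by linarith) (phi3 r q hr') (phi3 r (q + 1) hr') hQ (by linarith)
        · have hr'' : (6 : ℤ) ≤ (r : ℤ) := by exact_mod_cast hr
          rw [h] at hTup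
          push_cast at hTup
          exact final_arith ν s q (T E) (5 * (r : ℤ) + 1) (8 * r * (r - 1)) (8 * r)
            hs0 hsν' (by linarith) (phi4 r q hr'') (phi4 r (q + 1) hr'') hQ (by linarith)
        · have hr'' : (13 : ℤ) ≤ (r : ℤ) := by exact_mod_cast hr
          rw [h] at hTup
          push_cast at hTup
          exact final_arith ν s q (T E) (6 * (r : ℤ) + 1) (10 * r * (r - 1)) (10 * r)
            hs0 hsν' (by linarith) (phi5 r q hr'') (phi5 r (q + 1) hr'') hQ (by linarith)

/-- **Ryser's inequality for `r`-partite hypergraphs of maximum degree at most five.**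
Let `H` be an `r`-partite `r`-uniform hypergraph in which every vertex lies in at most `Δ`
edges, where `Δ = 3` and `r ≥ 4`, or `Δ = 4` and `r ≥ 6`, or `Δ = 5` and `r ≥ 13`.  Then `H` has
a vertex cover `C` and a matching `M` with `|C| ≤ (r - 1) |M|`; hence `τ(H) ≤ (r - 1) ν(H)`. -/
theorem result {V : Type*} [DecidableEq V] (r Δ : ℕ) (part : V → Fin r)
    (E : Finset (Finset V))
    (hcard : ∀ e ∈ E, e.card = r)
    (hpart : ∀ e ∈ E, ∀ u ∈ e, ∀ v ∈ e, part u = part v → u = v)
    (hdeg : ∀ v : V, (E.filter (fun e => v ∈ e)).card ≤ Δ)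
    (hcase : (Δ = 3 ∧ 4 ≤ r) ∨ (Δ = 4 ∧ 6 ≤ r) ∨ (Δ = 5 ∧ 13 ≤ r)) :
    ∃ (C : Finset V) (M : Finset (Finset V)), M ⊆ E ∧
      (∀ e ∈ M, ∀ f ∈ M, e ≠ f → Disjoint e f) ∧ (∀ e ∈ E, ∃ v ∈ C, v ∈ e) ∧
      C.card ≤ (r - 1) * M.card :=
  main r Δ part hcase E.card E rfl hcard hpart hdeg

end Vale.Agent.Results.P045.RyserMaxDegreeFive
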