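import Mathlib

namespace Vale.Agent.Results.P045.RyserMaxDegreeThree

open Finset

variable {V : Type*} [DecidableEq V]

/-- A family of nonempty sets has a cover with at most as many vertices as sets. -/
theorem cover_small (F : Finset (Finset V)) (hne : ∀ e ∈ F, e.Nonempty) :
    ∃ C : Finset V, C.card ≤ F.card ∧ ∀ e ∈ F, ∃ v ∈ C, v ∈ e := by
  induction F using Finset.induction_on with
  | empty => exact ⟨∅, by simp, by simp⟩
  | insert e F he ih =>
    obtain ⟨C, hC, hcov⟩ := ih (fun f hf => hne f (mem_insert_of_mem hf))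
    obtain ⟨v, hv⟩ := hne e (mem_insert_self e F)
    refine ⟨insert v C, ?_, ?_⟩
    · rw [card_insert_of_notMem he]
      exact (card_insert_le v C).trans (by omega)
    · intro f hf
      rcases mem_insert.mp hf with rfl | hf
      · exact ⟨v, mem_insert_self v C, hv⟩
      · obtain ⟨w, hw, hwf⟩ := hcov f hf
        exact ⟨w, mem_insert_of_mem hw, hwf⟩

/-- Peeling: if every vertex lies in at most `k + 1` edges of `F`, there are a vertex set `X`
and a subfamily `S` of exactly `(k + 1) |X|` edges, each containing a vertex of `X`, such that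
every vertex lies in at most `k` edges of `F \ S`. -/
theorem peel (k : ℕ) (F : Finset (Finset V))
    (hdeg : ∀ v : V, (F.filter (fun e => v ∈ e)).card ≤ k + 1) :
    ∃ (X : Finset V) (S : Finset (Finset V)), S ⊆ F ∧ S.card = (k + 1) * X.card ∧
      (∀ e ∈ S, ∃ x ∈ X, x ∈ e) ∧
      ∀ v : V, ((F \ S).filter (fun e => v ∈ e)).card ≤ k := by
  classical
  set star : V → Finset (Finset V) := fun x => F.filter (fun e => x ∈ e) with hstar
  have hmemstar : ∀ x e, e ∈ star x ↔ e ∈ F ∧ x ∈ e := fun x e => by simp [hstar]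
  set U : Finset V := F.biUnion id with hU
  let valid : Finset V → Prop := fun X =>
    (∀ x ∈ X, (star x).card = k + 1) ∧ ∀ x ∈ X, ∀ y ∈ X, x ≠ y → Disjoint (star x) (star y)
  obtain ⟨X, hXmem, hXmax⟩ := Finset.exists_max_image (U.powerset.filter valid) Finset.card
    ⟨∅, by simp [valid]⟩
  rw [mem_filter, mem_powerset] at hXmem
  obtain ⟨hXU, hX2, hXdisj⟩ := hXmem
  set S : Finset (Finset V) := X.biUnion star with hS
  have hSF : S ⊆ F := by
    intro e he
    rw [hS, mem_biUnion] at he
    obtain ⟨x, _, hx⟩ := he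
    exact ((hmemstar x e).mp hx).1
  have hScard : S.card = (k + 1) * X.card := by
    rw [hS, card_biUnion hXdisj, sum_congr rfl hX2]
    simp [mul_comm]
  refine ⟨X, S, hSF, hScard, ?_, ?_⟩
  · intro e he
    rw [hS, mem_biUnion] at he
    obtain ⟨x, hx, hxe⟩ := he
    exact ⟨x, hx, ((hmemstar x e).mp hxe).2⟩
  · intro y
    by_contra hgt
    push Not at hgt
    have hsub : (F \ S).filter (fun e => y ∈ e) ⊆ star y := by
      intro e he
      rw [mem_filter, mem_sdiff] at he
      exact (hmemstar y e).mpr ⟨he.1.1, he.2⟩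
    have heq : (F \ S).filter (fun e => y ∈ e) = star y :=
      eq_of_subset_of_card_le hsub ((hdeg y).trans hgt)
    have hcardy : (star y).card = k + 1 := by
      have h1 := hdeg y
      have h2 : k + 1 ≤ (star y).card := by rw [← heq]; exact hgt
      exact le_antisymm h1 h2
    have hyS : Disjoint (star y) S := by
      rw [disjoint_left]
      intro g hg
      rw [← heq, mem_filter, mem_sdiff] at hg
      exact hg.1.2
    have hne : (star y).Nonempty := by
      rw [← card_pos, hcardy]; omega
    obtain ⟨e0, he0⟩ := hne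
    have hyX : y ∉ X := by
      intro hyX
      exact (disjoint_left.mp hyS he0) (mem_biUnion.mpr ⟨y, hyX, he0⟩)
    have hvalid : valid (insert y X) := by
      constructor
      · intro x hx
        rcases mem_insert.mp hx with rfl | hx
        · exact hcardy
        · exact hX2 x hx
      · intro x hx z hz hxz
        rcases mem_insert.mp hx with hxy | hxX
        · rcases mem_insert.mp hz with hzy | hzX
          · exact absurd (hxy.trans hzy.symm) hxz
          · rw [hxy]; exact hyS.mono_right (subset_biUnion_of_mem star hzX)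
        · rcases mem_insert.mp hz with hzy | hzX
          · rw [hzy]; exact (hyS.mono_right (subset_biUnion_of_mem star hxX)).symm
          · exact hXdisj x hxX z hzX hxz
    have hyU : y ∈ U :=
      mem_biUnion.mpr ⟨e0, ((hmemstar y e0).mp he0).1, ((hmemstar y e0).mp he0).2⟩
    have hin : insert y X ∈ U.powerset.filter valid := by
      rw [mem_filter, mem_powerset]
      exact ⟨insert_subset hyU hXU, hvalid⟩
    have := hXmax _ hin
    rw [card_insert_of_notMem hyX] at this
    omega

/-- Greedy matching: in an `r`-uniform family in which every vertex lies in at most `k + 1`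
edges there is a matching `M` with `|F| ≤ (r k + 1) |M|`. -/
theorem greedy (r k : ℕ) (F : Finset (Finset V)) (huni : ∀ e ∈ F, e.card = r)
    (hdeg : ∀ v : V, (F.filter (fun e => v ∈ e)).card ≤ k + 1) :
    ∃ M : Finset (Finset V), M ⊆ F ∧ (∀ e ∈ M, ∀ f ∈ M, e ≠ f → Disjoint e f) ∧
      F.card ≤ (r * k + 1) * M.card := by
  classical
  set star : V → Finset (Finset V) := fun x => F.filter (fun e => x ∈ e) with hstar
  have hmemstar : ∀ x e, e ∈ star x ↔ e ∈ F ∧ x ∈ e := fun x e => by simp [hstar]
  let matching : Finset (Finset V) → Prop := fun M =>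
    ∀ e ∈ M, ∀ f ∈ M, e ≠ f → Disjoint e f
  obtain ⟨M2, hM2mem, hM2max⟩ := Finset.exists_max_image (F.powerset.filter matching) Finset.card
    ⟨∅, by simp [matching]⟩
  rw [mem_filter, mem_powerset] at hM2mem
  obtain ⟨hM2E, hM2match⟩ := hM2mem
  refine ⟨M2, hM2E, hM2match, ?_⟩
  set W : Finset (Finset V) := M2.biUnion (fun f => f.biUnion (fun v => star v \ {f})) with hW
  have hEsub : F ⊆ M2 ∪ W := by
    intro e he
    by_cases heM : e ∈ M2
    · exact mem_union_left _ heM
    · apply mem_union_right
      have hex : ∃ f ∈ M2, ¬ Disjoint e f := by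
        by_contra hall
        push Not at hall
        have hmatch : matching (insert e M2) := by
          intro a ha b hb hab
          rcases mem_insert.mp ha with hae | haM
          · rcases mem_insert.mp hb with hbe | hbM
            · exact absurd (hae.trans hbe.symm) hab
            · rw [hae]; exact hall b hbM
          · rcases mem_insert.mp hb with hbe | hbM
            · rw [hbe]; exact (hall a haM).symm
            · exact hM2match a haM b hbM hab
        have hin : insert e M2 ∈ F.powerset.filter matching := by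
          rw [mem_filter, mem_powerset]
          exact ⟨insert_subset he hM2E, hmatch⟩
        have := hM2max _ hin
        rw [card_insert_of_notMem heM] at this
        omega
      obtain ⟨f, hf, hnd⟩ := hex
      rw [not_disjoint_iff] at hnd
      obtain ⟨v, hve, hvf⟩ := hnd
      rw [hW, mem_biUnion]
      refine ⟨f, hf, mem_biUnion.mpr ⟨v, hvf, ?_⟩⟩
      rw [mem_sdiff, mem_singleton]
      exact ⟨(hmemstar v e).mpr ⟨he, hve⟩, fun h => heM (h ▸ hf)⟩
  have hWcard : W.card ≤ r * k * M2.card := by
    have h1 : W.card ≤ ∑ f ∈ M2, (f.biUnion (fun v => star v \ {f})).card := card_biUnion_le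
    have h2 : ∀ f ∈ M2, (f.biUnion (fun v => star v \ {f})).card ≤ r * k := by
      intro f hf
      have h3 : (f.biUnion (fun v => star v \ {f})).card ≤ ∑ v ∈ f, (star v \ {f}).card :=
        card_biUnion_le
      have h4 : ∀ v ∈ f, (star v \ {f}).card ≤ k := by
        intro v hv
        have hfs : f ∈ star v := (hmemstar v f).mpr ⟨hM2E hf, hv⟩
        have h5 : (star v \ {f}).card + ({f} : Finset (Finset V)).card = (star v).card :=
          card_sdiff_add_card_eq_card (singleton_subset_iff.mpr hfs)
        rw [card_singleton] at h5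
        have hd : (star v).card ≤ k + 1 := hdeg v
        omega
      calc (f.biUnion (fun v => star v \ {f})).card
          ≤ ∑ v ∈ f, (star v \ {f}).card := h3
        _ ≤ ∑ v ∈ f, k := sum_le_sum h4
        _ = r * k := by simp [huni f (hM2E hf)]
    calc W.card ≤ ∑ f ∈ M2, (f.biUnion (fun v => star v \ {f})).card := h1
      _ ≤ ∑ f ∈ M2, r * k := sum_le_sum h2
      _ = r * k * M2.card := by simp [mul_comm]
  calc F.card ≤ (M2 ∪ W).card := card_le_card hEsub
    _ ≤ M2.card + W.card := card_union_le _ _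
    _ ≤ M2.card + r * k * M2.card := by omega
    _ = (r * k + 1) * M2.card := by ring

/-- **Ryser's inequality for hypergraphs of maximum degree at most three.**
Let `r ≥ 12` and let `E` be a finite family of `r`-element sets (the edges of an `r`-uniform
hypergraph) such that every vertex lies in at most three edges. Then there are a vertex cover
`C` and a matching `M` (pairwise disjoint edges) with `|C| ≤ (r - 1) |M|`; hence
`τ ≤ (r - 1) ν`. -/
theorem result (r : ℕ) (hr : 12 ≤ r) (E : Finset (Finset V))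
    (huni : ∀ e ∈ E, e.card = r)
    (hdeg : ∀ v : V, (E.filter (fun e => v ∈ e)).card ≤ 3) :
    ∃ (C : Finset V) (M : Finset (Finset V)), M ⊆ E ∧
      (∀ e ∈ M, ∀ f ∈ M, e ≠ f → Disjoint e f) ∧
      (∀ e ∈ E, ∃ v ∈ C, v ∈ e) ∧ C.card ≤ (r - 1) * M.card := by
  classical
  obtain ⟨X, SX, hSXE, hSXcard, hSXcov, hdeg1⟩ := peel 2 E hdeg
  set E1 : Finset (Finset V) := E \ SX with hE1
  have hE1E : E1 ⊆ E := sdiff_subset
  obtain ⟨Y, SY, hSYE, hSYcard, hSYcov, hdeg2⟩ := peel 1 E1 hdeg1
  set E2 : Finset (Finset V) := E1 \ SY with hE2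
  have hE2E1 : E2 ⊆ E1 := sdiff_subset
  have hE2E : E2 ⊆ E := hE2E1.trans hE1E
  -- `E2` is a matching
  have hE2match : ∀ e ∈ E2, ∀ f ∈ E2, e ≠ f → Disjoint e f := by
    intro e he f hf hef
    by_contra hnd
    rw [not_disjoint_iff] at hnd
    obtain ⟨y, hye, hyf⟩ := hnd
    have hsub : ({e, f} : Finset (Finset V)) ⊆ E2.filter (fun g => y ∈ g) := by
      intro g hg
      rcases mem_insert.mp hg with rfl | hg
      · exact mem_filter.mpr ⟨he, hye⟩
      · rw [mem_singleton] at hg; subst hg
        exact mem_filter.mpr ⟨hf, hyf⟩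
    have := card_le_card hsub
    rw [card_pair hef] at this
    have := hdeg2 y
    omega
  have hcardE : E.card = 3 * X.card + E1.card := by
    have h0 : E1.card + SX.card = E.card := card_sdiff_add_card_eq_card hSXE
    rw [hSXcard] at h0
    omega
  have hcardE1 : E1.card = 2 * Y.card + E2.card := by
    have h0 : E2.card + SY.card = E1.card := card_sdiff_add_card_eq_card hSYE
    rw [hSYcard] at h0
    omega
  -- the cover
  have hne : ∀ e ∈ E2, e.Nonempty := by
    intro e he
    rw [← card_pos, huni e (hE2E he)]; omega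
  obtain ⟨C1, hC1card, hC1cov⟩ := cover_small E2 hne
  have hcov : ∀ e ∈ E, ∃ v ∈ X ∪ Y ∪ C1, v ∈ e := by
    intro e he
    by_cases heS : e ∈ SX
    · obtain ⟨x, hx, hxe⟩ := hSXcov e heS
      exact ⟨x, mem_union_left _ (mem_union_left _ hx), hxe⟩
    · have he1 : e ∈ E1 := mem_sdiff.mpr ⟨he, heS⟩
      by_cases heY : e ∈ SY
      · obtain ⟨x, hx, hxe⟩ := hSYcov e heY
        exact ⟨x, mem_union_left _ (mem_union_right _ hx), hxe⟩
      · obtain ⟨v, hv, hve⟩ := hC1cov e (mem_sdiff.mpr ⟨he1, heY⟩)
        exact ⟨v, mem_union_right _ hv, hve⟩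
  have hCcard : (X ∪ Y ∪ C1).card ≤ X.card + Y.card + E2.card := by
    have h1 := card_union_le (X ∪ Y) C1
    have h2 := card_union_le X Y
    omega
  -- matchings
  obtain ⟨Mb, hMbE1, hMbmatch, hMbcard⟩ :=
    greedy r 1 E1 (fun e he => huni e (hE1E he)) hdeg1
  obtain ⟨Mc, hMcE, hMcmatch, hMccard⟩ := greedy r 2 E huni hdeg
  obtain ⟨s, rfl⟩ : ∃ s, r = s + 12 := ⟨r - 12, by omega⟩
  have hr1 : s + 12 - 1 = s + 11 := by omega
  rw [hr1]
  set x := X.card with hx
  set y := Y.card with hy
  set m := E2.card with hm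
  set b := Mb.card with hb
  set c := Mc.card with hc
  by_cases ha : x + y + m ≤ (s + 11) * m
  · exact ⟨X ∪ Y ∪ C1, E2, hE2E, hE2match, hcov, hCcard.trans ha⟩
  by_cases hbb : x + y + m ≤ (s + 11) * b
  · exact ⟨X ∪ Y ∪ C1, Mb, hMbE1.trans hE1E, hMbmatch, hcov, hCcard.trans hbb⟩
  by_cases hcc : x + y + m ≤ (s + 11) * c
  · exact ⟨X ∪ Y ∪ C1, Mc, hMcE, hMcmatch, hcov, hCcard.trans hcc⟩
  exfalso
  push Not at ha hbb hcc
  have h1 : 2 * y + m ≤ ((s + 12) * 1 + 1) * b := by rw [← hcardE1]; exact hMbcard
  have h2 : 3 * x + 2 * y + m ≤ ((s + 12) * 2 + 1) * c := by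
    have := hMccard
    rw [hcardE, hcardE1] at this
    omega
  have e1 : (s + 11) * (2 * y + m) ≤ (s + 11) * (((s + 12) * 1 + 1) * b) :=
    Nat.mul_le_mul_left _ h1
  have e2 : ((s + 12) * 1 + 1) * ((s + 11) * b) < ((s + 12) * 1 + 1) * (x + y + m) :=
    Nat.mul_lt_mul_of_pos_left hbb (by omega)
  have e3 : (s + 11) * (3 * x + 2 * y + m) ≤ (s + 11) * (((s + 12) * 2 + 1) * c) :=
    Nat.mul_le_mul_left _ h2
  have e4 : ((s + 12) * 2 + 1) * ((s + 11) * c) < ((s + 12) * 2 + 1) * (x + y + m) :=
    Nat.mul_lt_mul_of_pos_left hcc (by omega)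
  zify at ha e1 e2 e3 e4
  nlinarith [ha, e1, e2, e3, e4, mul_nonneg (Int.natCast_nonneg s) (Int.natCast_nonneg x),
    mul_nonneg (Int.natCast_nonneg s) (Int.natCast_nonneg y),
    mul_nonneg (Int.natCast_nonneg s) (Int.natCast_nonneg m)]

end Vale.Agent.Results.P045.RyserMaxDegreeThree
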