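import Mathlib

namespace Vale.Agent.Results.P045.RyserMaxDegreeTwo

open Finset

variable {V : Type*} [DecidableEq V]

/-- A family of nonempty sets has a cover with at most as many vertices as sets. -/
theorem cover_small (F : Finset (Finset V)) (hne : ∀ e ∈ F, e.Nonempty) :
    ∃ C : Finset V, C.card ≤ F.card ∧ ∀ e ∈ F, ∃ v ∈ C, v ∈ e := by
  induction F using Finset.induction_on with
  | empty => exact ⟨∅, by simp, by simp⟩
  | insert e F he ih =>
    obtain ⟨C, hC, hcov⟩ := ih (fun f hf => hne f (mem_insert_of_mem hf))
    obtain ⟨v, hv⟩ := hne e (mem_insert_self e F)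
    refine ⟨insert v C, ?_, ?_⟩
    · rw [card_insert_of_notMem he]
      exact (card_insert_le v C).trans (by omega)
    · intro f hf
      rcases mem_insert.mp hf with rfl | hf
      · exact ⟨v, mem_insert_self v C, hv⟩
      · obtain ⟨w, hw, hwf⟩ := hcov f hf
        exact ⟨w, mem_insert_of_mem hw, hwf⟩

/-- **Ryser's inequality for hypergraphs of maximum degree at most two.**
Let `r ≥ 4` and let `E` be a finite family of `r`-element sets (the edges of an `r`-uniform
hypergraph) such that every vertex lies in at most two edges. Then there are a vertex cover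
`C` and a matching `M` (pairwise disjoint edges) with `|C| ≤ (r - 1) |M|`; hence
`τ ≤ (r - 1) ν`. -/
theorem result (r : ℕ) (hr : 4 ≤ r) (E : Finset (Finset V))
    (huni : ∀ e ∈ E, e.card = r)
    (hdeg : ∀ v : V, (E.filter (fun e => v ∈ e)).card ≤ 2) :
    ∃ (C : Finset V) (M : Finset (Finset V)), M ⊆ E ∧
      (∀ e ∈ M, ∀ f ∈ M, e ≠ f → Disjoint e f) ∧
      (∀ e ∈ E, ∃ v ∈ C, v ∈ e) ∧ C.card ≤ (r - 1) * M.card := by
  classical
  set star : V → Finset (Finset V) := fun x => E.filter (fun e => x ∈ e) with hstar
  have hstarE : ∀ x, star x ⊆ E := fun x => filter_subset _ _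
  have hmemstar : ∀ x e, e ∈ star x ↔ e ∈ E ∧ x ∈ e := fun x e => by simp [hstar]
  set U : Finset V := E.biUnion id with hU
  let valid : Finset V → Prop := fun X =>
    (∀ x ∈ X, (star x).card = 2) ∧ ∀ x ∈ X, ∀ y ∈ X, x ≠ y → Disjoint (star x) (star y)
  -- a maximal valid vertex set
  obtain ⟨X, hXmem, hXmax⟩ := Finset.exists_max_image (U.powerset.filter valid) Finset.card
    ⟨∅, by simp [valid]⟩
  rw [mem_filter, mem_powerset] at hXmem
  obtain ⟨hXU, hX2, hXdisj⟩ := hXmem
  set S : Finset (Finset V) := X.biUnion star with hS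
  have hSE : S ⊆ E := by
    intro e he
    rw [hS, mem_biUnion] at he
    obtain ⟨x, _, hx⟩ := he
    exact hstarE x hx
  have hScard : S.card = 2 * X.card := by
    rw [hS, card_biUnion hXdisj, sum_congr rfl hX2]
    simp [mul_comm]
  set M1 : Finset (Finset V) := E \ S with hM1
  have hM1card : M1.card + 2 * X.card = E.card := by
    rw [← hScard, hM1]; exact card_sdiff_add_card_eq_card hSE
  have hM1E : M1 ⊆ E := sdiff_subset
  -- `M1` is a matching
  have hM1match : ∀ e ∈ M1, ∀ f ∈ M1, e ≠ f → Disjoint e f := by
    intro e he f hf hef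
    by_contra hnd
    rw [not_disjoint_iff] at hnd
    obtain ⟨y, hye, hyf⟩ := hnd
    have heE : e ∈ E := hM1E he
    have hfE : f ∈ E := hM1E hf
    have heS : e ∉ S := (mem_sdiff.mp he).2
    have hfS : f ∉ S := (mem_sdiff.mp hf).2
    have hsub : ({e, f} : Finset (Finset V)) ⊆ star y := by
      intro g hg
      rcases mem_insert.mp hg with rfl | hg
      · exact (hmemstar y _).mpr ⟨heE, hye⟩
      · rw [mem_singleton] at hg; subst hg
        exact (hmemstar y _).mpr ⟨hfE, hyf⟩
    have hpair : ({e, f} : Finset (Finset V)).card = 2 := card_pair hef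
    have hstary : star y = {e, f} :=
      (eq_of_subset_of_card_le hsub (by rw [hpair]; exact hdeg y)).symm
    have hyX : y ∉ X := by
      intro hyX
      exact heS (mem_biUnion.mpr ⟨y, hyX, (hmemstar y e).mpr ⟨heE, hye⟩⟩)
    have hyS : Disjoint (star y) S := by
      rw [disjoint_left]
      intro g hg
      rw [hstary] at hg
      rcases mem_insert.mp hg with rfl | hg
      · exact heS
      · rw [mem_singleton] at hg; subst hg; exact hfS
    have hvalid : valid (insert y X) := by
      constructor
      · intro x hx
        rcases mem_insert.mp hx with rfl | hx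
        · rw [hstary]; exact hpair
        · exact hX2 x hx
      · intro x hx z hz hxz
        rcases mem_insert.mp hx with hxy | hxX
        · rcases mem_insert.mp hz with hzy | hzX
          · exact absurd (hxy.trans hzy.symm) hxz
          · rw [hxy]; exact hyS.mono_right (subset_biUnion_of_mem star hzX)
        · rcases mem_insert.mp hz with hzy | hzX
          · rw [hzy]; exact (hyS.mono_right (subset_biUnion_of_mem star hxX)).symm
          · exact hXdisj x hxX z hzX hxz
    have hyU : y ∈ U := mem_biUnion.mpr ⟨e, heE, hye⟩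
    have hin : insert y X ∈ U.powerset.filter valid := by
      rw [mem_filter, mem_powerset]
      exact ⟨insert_subset hyU hXU, hvalid⟩
    have := hXmax _ hin
    rw [card_insert_of_notMem hyX] at this
    omega
  -- the cover
  have hne : ∀ e ∈ M1, e.Nonempty := by
    intro e he
    rw [← card_pos, huni e (hM1E he)]; omega
  obtain ⟨C1, hC1card, hC1cov⟩ := cover_small M1 hne
  have hcov : ∀ e ∈ E, ∃ v ∈ X ∪ C1, v ∈ e := by
    intro e he
    by_cases heS : e ∈ S
    · rw [hS, mem_biUnion] at heS
      obtain ⟨x, hx, hxe⟩ := heS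
      exact ⟨x, mem_union_left _ hx, ((hmemstar x e).mp hxe).2⟩
    · obtain ⟨v, hv, hve⟩ := hC1cov e (mem_sdiff.mpr ⟨he, heS⟩)
      exact ⟨v, mem_union_right _ hv, hve⟩
  have hCcard : (X ∪ C1).card ≤ X.card + M1.card :=
    (card_union_le _ _).trans (by omega)
  -- a maximal matching
  let matching : Finset (Finset V) → Prop := fun M =>
    ∀ e ∈ M, ∀ f ∈ M, e ≠ f → Disjoint e f
  obtain ⟨M2, hM2mem, hM2max⟩ := Finset.exists_max_image (E.powerset.filter matching) Finset.card
    ⟨∅, by simp [matching]⟩
  rw [mem_filter, mem_powerset] at hM2mem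
  obtain ⟨hM2E, hM2match⟩ := hM2mem
  have hM2big : E.card ≤ (r + 1) * M2.card := by
    set W : Finset (Finset V) := M2.biUnion (fun f => f.biUnion (fun v => star v \ {f})) with hW
    have hEsub : E ⊆ M2 ∪ W := by
      intro e he
      by_cases heM : e ∈ M2
      · exact mem_union_left _ heM
      · apply mem_union_right
        have hex : ∃ f ∈ M2, ¬ Disjoint e f := by
          by_contra hall
          push Not at hall
          have hmatch : matching (insert e M2) := by
            intro a ha b hb hab
            rcases mem_insert.mp ha with hae | haM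
            · rcases mem_insert.mp hb with hbe | hbM
              · exact absurd (hae.trans hbe.symm) hab
              · rw [hae]; exact hall b hbM
            · rcases mem_insert.mp hb with hbe | hbM
              · rw [hbe]; exact (hall a haM).symm
              · exact hM2match a haM b hbM hab
          have hin : insert e M2 ∈ E.powerset.filter matching := by
            rw [mem_filter, mem_powerset]
            exact ⟨insert_subset he hM2E, hmatch⟩
          have := hM2max _ hin
          rw [card_insert_of_notMem heM] at this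
          omega
        obtain ⟨f, hf, hnd⟩ := hex
        rw [not_disjoint_iff] at hnd
        obtain ⟨v, hve, hvf⟩ := hnd
        rw [hW, mem_biUnion]
        refine ⟨f, hf, mem_biUnion.mpr ⟨v, hvf, ?_⟩⟩
        rw [mem_sdiff, mem_singleton]
        exact ⟨(hmemstar v e).mpr ⟨he, hve⟩, fun h => heM (h ▸ hf)⟩
    have hWcard : W.card ≤ r * M2.card := by
      have h1 : W.card ≤ ∑ f ∈ M2, (f.biUnion (fun v => star v \ {f})).card := card_biUnion_le
      have h2 : ∀ f ∈ M2, (f.biUnion (fun v => star v \ {f})).card ≤ r := by
        intro f hf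
        have h3 : (f.biUnion (fun v => star v \ {f})).card ≤ ∑ v ∈ f, (star v \ {f}).card :=
          card_biUnion_le
        have h4 : ∀ v ∈ f, (star v \ {f}).card ≤ 1 := by
          intro v hv
          have hfs : f ∈ star v := (hmemstar v f).mpr ⟨hM2E hf, hv⟩
          have h5 : (star v \ {f}).card + ({f} : Finset (Finset V)).card = (star v).card :=
            card_sdiff_add_card_eq_card (singleton_subset_iff.mpr hfs)
          rw [card_singleton] at h5
          have hd : (star v).card ≤ 2 := hdeg v
          omega
        calc (f.biUnion (fun v => star v \ {f})).card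
            ≤ ∑ v ∈ f, (star v \ {f}).card := h3
          _ ≤ ∑ v ∈ f, 1 := sum_le_sum h4
          _ = r := by simp [huni f (hM2E hf)]
      calc W.card ≤ ∑ f ∈ M2, (f.biUnion (fun v => star v \ {f})).card := h1
        _ ≤ ∑ f ∈ M2, r := sum_le_sum h2
        _ = r * M2.card := by simp [mul_comm]
    calc E.card ≤ (M2 ∪ W).card := card_le_card hEsub
      _ ≤ M2.card + W.card := card_union_le _ _
      _ ≤ M2.card + r * M2.card := by omega
      _ = (r + 1) * M2.card := by ring
  -- arithmetic
  obtain ⟨s, rfl⟩ : ∃ s, r = s + 4 := ⟨r - 4, by omega⟩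
  have hr1 : s + 4 - 1 = s + 3 := by omega
  rw [hr1]
  by_cases hcase : 2 * E.card ≤ (s + 4 + 1) * X.card
  · refine ⟨X ∪ C1, M2, hM2E, hM2match, hcov, hCcard.trans ?_⟩
    have h1 : (s + 5) * (X.card + M1.card) ≤ (s + 5) * ((s + 3) * M2.card) := by
      nlinarith [Nat.mul_le_mul_left (s + 3) hM2big]
    exact Nat.le_of_mul_le_mul_left h1 (by omega)
  · push Not at hcase
    refine ⟨X ∪ C1, M1, hM1E, hM1match, hcov, hCcard.trans ?_⟩
    have h1 : (s + 5) * (X.card + M1.card) ≤ (s + 5) * ((s + 3) * M1.card) := by
      nlinarith [Nat.zero_le (s * s * E.card), Nat.zero_le (s * E.card), Nat.zero_le (s * X.card),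
        Nat.zero_le (s * M1.card)]
    exact Nat.le_of_mul_le_mul_left h1 (by omega)

end Vale.Agent.Results.P045.RyserMaxDegreeTwo
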